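import Vale.Agent.Lib.P126.Defs

/-! P126: covering numbers of products, polars of products. -/

namespace Vale.Agent.P126

open Set

variable {ι κ : Type} [Fintype ι] [Fintype κ]

theorem cover_iff {A B : Set (ι → ℝ)} {X : Finset (ι → ℝ)} :
    (A ⊆ ⋃ x ∈ X, (fun b => x + b) '' B) ↔ ∀ a ∈ A, ∃ x ∈ X, a - x ∈ B := by
  constructor
  · intro h a ha
    have h1 := h ha
    simp only [mem_iUnion, mem_image, exists_prop] at h1
    obtain ⟨x, hx, b, hb, e⟩ := h1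
    refine ⟨x, hx, ?_⟩
    rw [← e, add_sub_cancel_left]
    exact hb
  · intro h a ha
    obtain ⟨x, hx, hb⟩ := h a ha
    simp only [mem_iUnion, mem_image, exists_prop]
    exact ⟨x, hx, a - x, hb, by abel⟩

/-- `A` has a finite cover by translates of `B` -/
def FC (A B : Set (ι → ℝ)) : Prop := ∃ X : Finset (ι → ℝ), ∀ a ∈ A, ∃ x ∈ X, a - x ∈ B

theorem N_le {A B : Set (ι → ℝ)} {X : Finset (ι → ℝ)} (h : ∀ a ∈ A, ∃ x ∈ X, a - x ∈ B) :
    N A B ≤ X.card := Nat.sInf_le ⟨X, rfl, cover_iff.2 h⟩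

theorem N_spec {A B : Set (ι → ℝ)} (h : FC A B) :
    ∃ X : Finset (ι → ℝ), X.card = N A B ∧ ∀ a ∈ A, ∃ x ∈ X, a - x ∈ B := by
  have hne : {k | ∃ X : Finset (ι → ℝ), X.card = k ∧
      A ⊆ ⋃ x ∈ X, (fun b => x + b) '' B}.Nonempty := by
    obtain ⟨X, hX⟩ := h
    exact ⟨X.card, X, rfl, cover_iff.2 hX⟩
  obtain ⟨X, h1, h2⟩ := Nat.sInf_mem hne
  exact ⟨X, h1, cover_iff.1 h2⟩

theorem FC.mono {A A' B B' : Set (ι → ℝ)} (hA : A ⊆ A') (hB : B' ⊆ B) (h : FC A' B') : FC A B := by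
  obtain ⟨X, hX⟩ := h
  refine ⟨X, fun a ha => ?_⟩
  obtain ⟨x, hx, hb⟩ := hX a (hA ha)
  exact ⟨x, hx, hB hb⟩

theorem N_mono {A A' B B' : Set (ι → ℝ)} (hA : A ⊆ A') (hB : B' ⊆ B) (h : FC A' B') :
    N A B ≤ N A' B' := by
  obtain ⟨X, h1, h2⟩ := N_spec h
  rw [← h1]
  refine N_le fun a ha => ?_
  obtain ⟨x, hx, hb⟩ := h2 a (hA ha)
  exact ⟨x, hx, hB hb⟩

theorem N_pos {A B : Set (ι → ℝ)} (h : FC A B) (hA : A.Nonempty) : 0 < N A B := by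
  obtain ⟨X, h1, h2⟩ := N_spec h
  rw [← h1]
  obtain ⟨a, ha⟩ := hA
  obtain ⟨x, hx, -⟩ := h2 a ha
  exact Finset.card_pos.2 ⟨x, hx⟩

theorem FC_of_compact {A B : Set (ι → ℝ)} (hA : IsCompact A) (hB : (interior B).Nonempty) :
    FC A B := by
  classical
  obtain ⟨z, hz⟩ := hB
  obtain ⟨t, -, ht⟩ := hA.elim_nhds_subcover (fun a => {y | y - (a - z) ∈ interior B}) (by
    intro a _
    apply IsOpen.mem_nhds
    · exact isOpen_interior.preimage (by fun_prop)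
    · simp only [mem_setOf_eq]
      rw [sub_sub_cancel]
      exact hz)
  refine ⟨t.image fun a => a - z, fun a ha => ?_⟩
  have h1 := ht ha
  simp only [mem_iUnion, exists_prop] at h1
  obtain ⟨x, hx, h2⟩ := h1
  exact ⟨x - z, Finset.mem_image_of_mem _ hx, interior_subset h2⟩

theorem mem_dil {t : ℝ} {K : Set (ι → ℝ)} {x : ι → ℝ} (h : x ∈ K) : t • x ∈ dil t K :=
  ⟨x, h, rfl⟩

theorem dil_dil (s t : ℝ) (K : Set (ι → ℝ)) : dil s (dil t K) = dil (s * t) K := by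
  unfold dil
  rw [image_image]
  congr 1
  funext x
  rw [smul_smul]

theorem dil_one (K : Set (ι → ℝ)) : dil 1 K = K := by
  unfold dil
  simp

theorem dil_mono {t : ℝ} {K L : Set (ι → ℝ)} (h : K ⊆ L) : dil t K ⊆ dil t L := image_mono h

theorem FC.dil {A B : Set (ι → ℝ)} (h : FC A B) (t : ℝ) : FC (dil t A) (dil t B) := by
  classical
  obtain ⟨X, hX⟩ := h
  refine ⟨X.image fun x => t • x, ?_⟩
  rintro _ ⟨a, ha, rfl⟩
  obtain ⟨x, hx, hb⟩ := hX a ha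
  refine ⟨t • x, Finset.mem_image_of_mem _ hx, ?_⟩
  change t • a - t • x ∈ _
  rw [← smul_sub]
  exact mem_dil hb

theorem N_dil_le {A B : Set (ι → ℝ)} (h : FC A B) (t : ℝ) : N (dil t A) (dil t B) ≤ N A B := by
  classical
  obtain ⟨X, h1, h2⟩ := N_spec h
  rw [← h1]
  refine (N_le (X := X.image fun x => t • x) ?_).trans Finset.card_image_le
  rintro _ ⟨a, ha, rfl⟩
  obtain ⟨x, hx, hb⟩ := h2 a ha
  refine ⟨t • x, Finset.mem_image_of_mem _ hx, ?_⟩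
  change t • a - t • x ∈ _
  rw [← smul_sub]
  exact mem_dil hb

theorem N_dil {A B : Set (ι → ℝ)} (h : FC A B) {t : ℝ} (ht : t ≠ 0) :
    N (dil t A) (dil t B) = N A B := by
  refine le_antisymm (N_dil_le h t) ?_
  have h1 := N_dil_le (h.dil t) t⁻¹
  rwa [dil_dil, dil_dil, inv_mul_cancel₀ ht, dil_one, dil_one] at h1

/-! ### products -/

theorem FC_prod {A₁ B₁ : Set (ι → ℝ)} {A₂ B₂ : Set (κ → ℝ)} (h₁ : FC A₁ B₁) (h₂ : FC A₂ B₂) :
    FC (prodB A₁ A₂) (prodB B₁ B₂) := by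
  classical
  obtain ⟨X₁, h₁⟩ := h₁
  obtain ⟨X₂, h₂⟩ := h₂
  refine ⟨(X₁ ×ˢ X₂).image fun p => Sum.elim p.1 p.2, ?_⟩
  rintro z ⟨hz1, hz2⟩
  obtain ⟨x, hx, hbx⟩ := h₁ _ hz1
  obtain ⟨y, hy, hby⟩ := h₂ _ hz2
  exact ⟨Sum.elim x y, Finset.mem_image.2 ⟨(x, y), Finset.mem_product.2 ⟨hx, hy⟩, rfl⟩, hbx, hby⟩

theorem N_prod_le {A₁ B₁ : Set (ι → ℝ)} {A₂ B₂ : Set (κ → ℝ)} (h₁ : FC A₁ B₁) (h₂ : FC A₂ B₂) :
    N (prodB A₁ A₂) (prodB B₁ B₂) ≤ N A₁ B₁ * N A₂ B₂ := by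
  classical
  obtain ⟨X₁, c₁, h₁⟩ := N_spec h₁
  obtain ⟨X₂, c₂, h₂⟩ := N_spec h₂
  rw [← c₁, ← c₂, ← Finset.card_product]
  refine (N_le (X := (X₁ ×ˢ X₂).image fun p => Sum.elim p.1 p.2) ?_).trans Finset.card_image_le
  rintro z ⟨hz1, hz2⟩
  obtain ⟨x, hx, hbx⟩ := h₁ _ hz1
  obtain ⟨y, hy, hby⟩ := h₂ _ hz2
  exact ⟨Sum.elim x y, Finset.mem_image.2 ⟨(x, y), Finset.mem_product.2 ⟨hx, hy⟩, rfl⟩, hbx, hby⟩

/-- differences of points of a translate of a symmetric convex set -/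
theorem diff_mem {B : Set (ι → ℝ)} (hc : Convex ℝ B) (hs : ∀ x ∈ B, -x ∈ B) {p q x : ι → ℝ}
    (hp : p - x ∈ B) (hq : q - x ∈ B) : p - q ∈ dil 2 B := by
  refine ⟨(1 / 2 : ℝ) • (p - x) + (1 / 2 : ℝ) • (-(q - x)),
    hc hp (hs _ hq) (by norm_num) (by norm_num) (by norm_num), ?_⟩
  change (2 : ℝ) • ((1 / 2 : ℝ) • (p - x) + (1 / 2 : ℝ) • (-(q - x))) = p - q
  rw [smul_add, smul_smul, smul_smul]
  norm_num

theorem N_prod_ge {A₁ B₁ : Set (ι → ℝ)} {A₂ B₂ : Set (κ → ℝ)}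
    (hc : Convex ℝ B₁) (hs : ∀ x ∈ B₁, -x ∈ B₁) (h0 : (0 : ι → ℝ) ∈ B₁)
    (h₂ : FC A₂ B₂) (hne : A₂.Nonempty) (hfc : FC (prodB A₁ A₂) (prodB B₁ B₂)) :
    N A₁ (dil 2 B₁) * N A₂ B₂ ≤ N (prodB A₁ A₂) (prodB B₁ B₂) := by
  classical
  obtain ⟨X, cX, hX⟩ := N_spec hfc
  have hN2 := N_pos h₂ hne
  -- separated sets are small
  have key : ∀ P : Finset (ι → ℝ), (∀ p ∈ P, p ∈ A₁) →
      (∀ p ∈ P, ∀ q ∈ P, p ≠ q → p - q ∉ dil 2 B₁) → P.card * N A₂ B₂ ≤ X.card := by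
    intro P hP hsep
    let Y : (ι → ℝ) → Finset (ι ⊕ κ → ℝ) := fun p =>
      X.filter fun x => (p - fun i => x (Sum.inl i)) ∈ B₁
    have hY : ∀ p ∈ P, N A₂ B₂ ≤ (Y p).card := by
      intro p hp
      refine (N_le (X := (Y p).image fun x j => x (Sum.inr j)) ?_).trans Finset.card_image_le
      intro a ha
      obtain ⟨x, hx, hb⟩ := hX (Sum.elim p a) ⟨hP p hp, ha⟩
      exact ⟨fun j => x (Sum.inr j), Finset.mem_image.2 ⟨x, Finset.mem_filter.2 ⟨hx, hb.1⟩, rfl⟩,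
        hb.2⟩
    have hdisj : ∀ p ∈ P, ∀ q ∈ P, p ≠ q → Disjoint (Y p) (Y q) := by
      intro p hp q hq hpq
      rw [Finset.disjoint_left]
      intro x hxp hxq
      exact hsep p hp q hq hpq (diff_mem hc hs (Finset.mem_filter.1 hxp).2
        (Finset.mem_filter.1 hxq).2)
    calc P.card * N A₂ B₂ = ∑ _p ∈ P, N A₂ B₂ := by rw [Finset.sum_const, smul_eq_mul]
      _ ≤ ∑ p ∈ P, (Y p).card := Finset.sum_le_sum hY
      _ = (P.biUnion Y).card := (Finset.card_biUnion hdisj).symm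
      _ ≤ X.card := Finset.card_le_card (Finset.biUnion_subset.2 fun p _ =>
          Finset.filter_subset _ _)
  -- a largest separated set
  let T : Set ℕ := {k | ∃ P : Finset (ι → ℝ), P.card = k ∧ (∀ p ∈ P, p ∈ A₁) ∧
    (∀ p ∈ P, ∀ q ∈ P, p ≠ q → p - q ∉ dil 2 B₁)}
  have hTne : T.Nonempty := ⟨0, ∅, rfl, by simp, by simp⟩
  have hTb : BddAbove T := by
    refine ⟨X.card, ?_⟩
    rintro k ⟨P, rfl, h1, h2⟩
    have h3 := key P h1 h2
    calc P.card ≤ P.card * N A₂ B₂ := Nat.le_mul_of_pos_right _ hN2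
      _ ≤ X.card := h3
  obtain ⟨P, hPc, hPA, hPs⟩ := Nat.sSup_mem hTne hTb
  have hmax : N A₁ (dil 2 B₁) ≤ P.card := by
    refine N_le fun a ha => ?_
    by_contra hcon
    push Not at hcon
    have haP : a ∉ P := by
      intro haP
      apply hcon a haP
      rw [sub_self]
      exact ⟨0, h0, smul_zero _⟩
    have hsymm : ∀ x, x ∉ dil 2 B₁ → -x ∉ dil 2 B₁ := by
      rintro x hx ⟨y, hy, hyx⟩
      apply hx
      refine ⟨-y, hs y hy, ?_⟩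
      change (2 : ℝ) • -y = x
      change (2 : ℝ) • y = -x at hyx
      rw [smul_neg, hyx, neg_neg]
    have hmem : P.card + 1 ∈ T := by
      refine ⟨insert a P, Finset.card_insert_of_notMem haP, ?_, ?_⟩
      · intro p hp
        rcases Finset.mem_insert.1 hp with h | h
        · rw [h]; exact ha
        · exact hPA p h
      · intro p hp q hq hpq
        rcases Finset.mem_insert.1 hp with h | h <;> rcases Finset.mem_insert.1 hq with h' | h'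
        · exact absurd (h.trans h'.symm) hpq
        · rw [h]; exact hcon q h'
        · rw [h', ← neg_sub]
          exact hsymm _ (hcon p h)
        · exact hPs p h q h' hpq
    have := le_csSup hTb hmem
    omega
  calc N A₁ (dil 2 B₁) * N A₂ B₂ ≤ P.card * N A₂ B₂ := Nat.mul_le_mul_right _ hmax
    _ ≤ X.card := key P hPA hPs
    _ = N (prodB A₁ A₂) (prodB B₁ B₂) := cX

theorem dil_prodB (t : ℝ) (A : Set (ι → ℝ)) (B : Set (κ → ℝ)) :
    dil t (prodB A B) = prodB (dil t A) (dil t B) := by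
  ext z
  constructor
  · rintro ⟨w, ⟨h1, h2⟩, rfl⟩
    exact ⟨⟨_, h1, rfl⟩, ⟨_, h2, rfl⟩⟩
  · rintro ⟨⟨a, ha, h1⟩, ⟨b, hb, h2⟩⟩
    refine ⟨Sum.elim a b, ⟨ha, hb⟩, ?_⟩
    funext s
    cases s with
    | inl i => exact congrFun h1 i
    | inr j => exact congrFun h2 j

end Vale.Agent.P126
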