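import Mathlib

/-! P126: covering numbers, polars, products. -/

namespace Vale.Agent.P126

open Set

variable {ι κ : Type} [Fintype ι] [Fintype κ]

/-- origin-symmetric convex body in `ℝ^ι` -/
structure SymBody (K : Set (ι → ℝ)) : Prop where
  compact : IsCompact K
  convex : Convex ℝ K
  interior : (interior K).Nonempty
  symm : ∀ x ∈ K, -x ∈ K

/-- the polar body, for the standard inner product -/
def polar (K : Set (ι → ℝ)) : Set (ι → ℝ) := {y | ∀ x ∈ K, ∑ i, x i * y i ≤ 1}

/-- the covering number: least number of translates of `B` whose union contains `A` -/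
noncomputable def N (A B : Set (ι → ℝ)) : ℕ :=
  sInf {k | ∃ X : Finset (ι → ℝ), X.card = k ∧ A ⊆ ⋃ x ∈ X, (fun b => x + b) '' B}

/-- the dilate `t K` -/
def dil (t : ℝ) (K : Set (ι → ℝ)) : Set (ι → ℝ) := (fun x => t • x) '' K

/-- the Cartesian product, in `ℝ^(ι ⊕ κ)` -/
def prodB (K : Set (ι → ℝ)) (L : Set (κ → ℝ)) : Set (ι ⊕ κ → ℝ) :=
  {z | (fun i => z (Sum.inl i)) ∈ K ∧ (fun j => z (Sum.inr j)) ∈ L}

/-- the two inequalities of Q1 for the pair `(K, L)` with constants `a`, `b` -/
def Dual (a b : ℝ) (K L : Set (ι → ℝ)) : Prop :=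
  1 / b * Real.log (N (polar L) (dil a (polar K))) ≤ Real.log (N K L) ∧
    Real.log (N K L) ≤ b * Real.log (N (polar L) (dil a⁻¹ (polar K)))

end Vale.Agent.P126
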