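import Vale.Agent.Lib.P126.Polar

/-! P126: duality of metric entropy passes to products. -/

namespace Vale.Agent.P126

open Set

variable {ι κ : Type} [Fintype ι] [Fintype κ]

theorem FC_body {A B : Set (ι → ℝ)} (hA : SymBody A) (hB : SymBody B) : FC A B :=
  FC_of_compact hA.compact hB.interior

theorem log_le_of_le {m k : ℕ} (hm : 0 < m) (h : m ≤ k) : Real.log m ≤ Real.log k :=
  Real.log_le_log (by exact_mod_cast hm) (by exact_mod_cast h)

theorem main_prod {a b : ℝ} (ha : 1 ≤ a) (hb : 1 ≤ b) {K₁ L₁ : Set (ι → ℝ)} {K₂ L₂ : Set (κ → ℝ)}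
    (hK₁ : SymBody K₁) (hL₁ : SymBody L₁) (hK₂ : SymBody K₂) (hL₂ : SymBody L₂)
    (d₁ : Dual a b K₁ L₁) (d₁' : Dual a b K₁ (dil 2 L₁))
    (d₂ : Dual a b K₂ L₂) (d₂' : Dual a b K₂ (dil 2 L₂)) :
    Dual (4 * a) b (prodB K₁ K₂) (prodB L₁ L₂) := by
  have ha0 : 0 < a := by linarith
  have hb0 : 0 < b := by linarith
  have pK₁ := polar_body hK₁
  have pK₂ := polar_body hK₂
  have pL₁ := polar_body hL₁
  have pL₂ := polar_body hL₂
  constructor
  · -- first inequality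
    have f1 : FC (polar L₁) (dil (2 * a) (polar K₁)) := FC_body pL₁ (pK₁.dil (by positivity))
    have f2 : FC (polar L₂) (dil (2 * a) (polar K₂)) := FC_body pL₂ (pK₂.dil (by positivity))
    have s1 : dil (2 * a) (prodB (polar K₁) (polar K₂)) ⊆ dil (4 * a) (polar (prodB K₁ K₂)) := by
      have h := dil_mono (t := 4 * a) (half_prod_sub K₁ K₂)
      rw [dil_dil, show 4 * a * (1 / 2) = 2 * a by ring] at h
      exact h
    have s2 : polar (prodB L₁ L₂) ⊆ prodB (polar L₁) (polar L₂) :=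
      polar_prod_sub (zero_memB hL₁) (zero_memB hL₂)
    have f3 : FC (prodB (polar L₁) (polar L₂)) (dil (2 * a) (prodB (polar K₁) (polar K₂))) := by
      rw [dil_prodB]
      exact FC_prod f1 f2
    have n1 : N (polar (prodB L₁ L₂)) (dil (4 * a) (polar (prodB K₁ K₂))) ≤
        N (polar L₁) (dil (2 * a) (polar K₁)) * N (polar L₂) (dil (2 * a) (polar K₂)) := by
      refine (N_mono s2 s1 f3).trans ?_
      rw [dil_prodB]
      exact N_prod_le f1 f2
    have hne : (polar (prodB L₁ L₂)).Nonempty := by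
      refine ⟨0, fun x _ => ?_⟩
      simp
    have n0 : 0 < N (polar (prodB L₁ L₂)) (dil (4 * a) (polar (prodB K₁ K₂))) :=
      N_pos (f3.mono s2 s1) hne
    have p1 := N_pos f1 ⟨0, zero_memB pL₁⟩
    have p2 := N_pos f2 ⟨0, zero_memB pL₂⟩
    have e1 : N (polar (dil 2 L₁)) (dil a (polar K₁)) = N (polar L₁) (dil (2 * a) (polar K₁)) := by
      rw [polar_dil (by norm_num), ← N_dil f1 (t := (2 : ℝ)⁻¹) (by norm_num), dil_dil,
        show (2 : ℝ)⁻¹ * (2 * a) = a by ring]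
    have e2 : N (polar (dil 2 L₂)) (dil a (polar K₂)) = N (polar L₂) (dil (2 * a) (polar K₂)) := by
      rw [polar_dil (by norm_num), ← N_dil f2 (t := (2 : ℝ)⁻¹) (by norm_num), dil_dil,
        show (2 : ℝ)⁻¹ * (2 * a) = a by ring]
    have u1 := d₁'.1
    have u2 := d₂'.1
    rw [e1] at u1
    rw [e2] at u2
    -- lower bound for the product
    have g1 : FC K₁ L₁ := FC_body hK₁ hL₁
    have g2 : FC K₂ L₂ := FC_body hK₂ hL₂
    have g2' : FC K₂ (dil 2 L₂) := FC_body hK₂ (hL₂.dil (by norm_num))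
    have g1' : FC K₁ (dil 2 L₁) := FC_body hK₁ (hL₁.dil (by norm_num))
    have n2 := N_prod_ge hL₁.convex hL₁.symm (zero_memB hL₁) g2 ⟨0, zero_memB hK₂⟩ (FC_prod g1 g2)
    have n3 : N K₂ (dil 2 L₂) ≤ N K₂ L₂ := by
      refine N_mono le_rfl ?_ g2
      intro x hx
      refine ⟨(1 / 2 : ℝ) • x, ?_, ?_⟩
      · have h := hL₂.convex hx (zero_memB hL₂) (a := (1 / 2 : ℝ)) (b := (1 / 2 : ℝ)) (by norm_num)
          (by norm_num) (by norm_num)
        rwa [smul_zero, add_zero] at h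
      · change (2 : ℝ) • ((1 / 2 : ℝ) • x) = x
        rw [smul_smul]
        norm_num
    have n4 : N K₁ (dil 2 L₁) * N K₂ (dil 2 L₂) ≤ N (prodB K₁ K₂) (prodB L₁ L₂) :=
      (Nat.mul_le_mul_left _ n3).trans n2
    have q1 := N_pos g1' ⟨0, zero_memB hK₁⟩
    have q2 := N_pos g2' ⟨0, zero_memB hK₂⟩
    have l1 := log_le_of_le n0 n1
    have l2 := log_le_of_le (Nat.mul_pos q1 q2) n4
    rw [Nat.cast_mul, Real.log_mul (by exact_mod_cast p1.ne') (by exact_mod_cast p2.ne')] at l1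
    rw [Nat.cast_mul, Real.log_mul (by exact_mod_cast q1.ne') (by exact_mod_cast q2.ne')] at l2
    have l3 := mul_le_mul_of_nonneg_left l1 (by positivity : (0 : ℝ) ≤ 1 / b)
    linarith
  · -- second inequality
    have ha4 : 0 < (4 * a)⁻¹ := by positivity
    have g1 : FC K₁ L₁ := FC_body hK₁ hL₁
    have g2 : FC K₂ L₂ := FC_body hK₂ hL₂
    have n1 := N_prod_le g1 g2
    have n0 := N_pos (FC_prod g1 g2) ⟨0, zero_memB hK₁, zero_memB hK₂⟩
    have q1 := N_pos g1 ⟨0, zero_memB hK₁⟩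
    have q2 := N_pos g2 ⟨0, zero_memB hK₂⟩
    have l1 := log_le_of_le n0 n1
    rw [Nat.cast_mul, Real.log_mul (by exact_mod_cast q1.ne') (by exact_mod_cast q2.ne')] at l1
    -- polar side
    have f1 : FC (polar L₁) (dil a⁻¹ (polar K₁)) := FC_body pL₁ (pK₁.dil (by positivity))
    have f2 : FC (polar L₂) (dil a⁻¹ (polar K₂)) := FC_body pL₂ (pK₂.dil (by positivity))
    have hA₁ : SymBody (dil (1 / 2) (polar L₁)) := pL₁.dil (by norm_num)
    have hA₂ : SymBody (dil (1 / 2) (polar L₂)) := pL₂.dil (by norm_num)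
    have hB₁ : SymBody (dil (4 * a)⁻¹ (polar K₁)) := pK₁.dil ha4
    have hB₂ : SymBody (dil (4 * a)⁻¹ (polar K₂)) := pK₂.dil ha4
    have hB₂' : SymBody (dil 2 (dil (4 * a)⁻¹ (polar K₂))) := hB₂.dil (by norm_num)
    have hB₁' : SymBody (dil 2 (dil (4 * a)⁻¹ (polar K₁))) := hB₁.dil (by norm_num)
    have n2 := N_prod_ge hB₁.convex hB₁.symm (zero_memB hB₁) (FC_body hA₂ hB₂)
      ⟨0, zero_memB hA₂⟩ (FC_prod (FC_body hA₁ hB₁) (FC_body hA₂ hB₂))
    have n3 : N (dil (1 / 2) (polar L₂)) (dil 2 (dil (4 * a)⁻¹ (polar K₂))) ≤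
        N (dil (1 / 2) (polar L₂)) (dil (4 * a)⁻¹ (polar K₂)) := by
      refine N_mono le_rfl ?_ (FC_body hA₂ hB₂)
      intro x hx
      refine ⟨(1 / 2 : ℝ) • x, ?_, ?_⟩
      · have h := hB₂.convex hx (zero_memB hB₂) (a := (1 / 2 : ℝ)) (b := (1 / 2 : ℝ)) (by norm_num)
          (by norm_num) (by norm_num)
        rwa [smul_zero, add_zero] at h
      · change (2 : ℝ) • ((1 / 2 : ℝ) • x) = x
        rw [smul_smul]
        norm_num
    have e : (2 : ℝ) * (4 * a)⁻¹ = 1 / 2 * a⁻¹ := by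
      rw [mul_inv]; ring
    have e1 : N (dil (1 / 2) (polar L₁)) (dil 2 (dil (4 * a)⁻¹ (polar K₁))) =
        N (polar L₁) (dil a⁻¹ (polar K₁)) := by
      rw [dil_dil, e, ← dil_dil, N_dil f1 (by norm_num)]
    have e2 : N (dil (1 / 2) (polar L₂)) (dil 2 (dil (4 * a)⁻¹ (polar K₂))) =
        N (polar L₂) (dil a⁻¹ (polar K₂)) := by
      rw [dil_dil, e, ← dil_dil, N_dil f2 (by norm_num)]
    have s1 : prodB (dil (1 / 2) (polar L₁)) (dil (1 / 2) (polar L₂)) ⊆ polar (prodB L₁ L₂) := by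
      rw [← dil_prodB]
      exact half_prod_sub L₁ L₂
    have s2 : dil (4 * a)⁻¹ (polar (prodB K₁ K₂)) ⊆
        prodB (dil (4 * a)⁻¹ (polar K₁)) (dil (4 * a)⁻¹ (polar K₂)) := by
      rw [← dil_prodB]
      exact dil_mono (polar_prod_sub (zero_memB hK₁) (zero_memB hK₂))
    have f3 : FC (polar (prodB L₁ L₂)) (dil (4 * a)⁻¹ (polar (prodB K₁ K₂))) := by
      have h8 : 0 < (4 * a)⁻¹ * (1 / 2) := by positivity
      have h := FC_prod (FC_body pL₁ (pK₁.dil h8)) (FC_body pL₂ (pK₂.dil h8))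
      rw [← dil_prodB] at h
      refine h.mono (polar_prod_sub (zero_memB hL₁) (zero_memB hL₂)) ?_
      rw [← dil_dil]
      exact dil_mono (half_prod_sub K₁ K₂)
    have n4 := N_mono s1 s2 f3
    have n5 : N (polar L₁) (dil a⁻¹ (polar K₁)) * N (polar L₂) (dil a⁻¹ (polar K₂)) ≤
        N (polar (prodB L₁ L₂)) (dil (4 * a)⁻¹ (polar (prodB K₁ K₂))) := by
      rw [← e1, ← e2]
      exact ((Nat.mul_le_mul_left _ n3).trans n2).trans n4
    have p1 := N_pos f1 ⟨0, zero_memB pL₁⟩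
    have p2 := N_pos f2 ⟨0, zero_memB pL₂⟩
    have l2 := log_le_of_le (Nat.mul_pos p1 p2) n5
    rw [Nat.cast_mul, Real.log_mul (by exact_mod_cast p1.ne') (by exact_mod_cast p2.ne')] at l2
    have u1 := d₁.2
    have u2 := d₂.2
    have l3 := mul_le_mul_of_nonneg_left l2 hb0.le
    linarith

end Vale.Agent.P126
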