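import Vale.Agent.Lib.P126.Cov

/-! P126: polars of symmetric convex bodies and of products. -/

namespace Vale.Agent.P126

open Set
open scoped Pointwise

variable {ι κ : Type} [Fintype ι] [Fintype κ]

theorem zero_int {K : Set (ι → ℝ)} (h : SymBody K) : (0 : ι → ℝ) ∈ interior K := by
  obtain ⟨z, hz⟩ := h.interior
  have h1 : -z ∈ K := h.symm z (interior_subset hz)
  have h2 := h.convex.combo_interior_self_mem_interior (a := (1 / 2 : ℝ)) (b := (1 / 2 : ℝ)) hz h1
    (by norm_num) (by norm_num) (by norm_num)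
  have h3 : (1 / 2 : ℝ) • z + (1 / 2 : ℝ) • (-z) = 0 := by rw [smul_neg, add_neg_cancel]
  rwa [h3] at h2

theorem zero_memB {K : Set (ι → ℝ)} (h : SymBody K) : (0 : ι → ℝ) ∈ K :=
  interior_subset (zero_int h)

theorem SymBody.dil {K : Set (ι → ℝ)} (h : SymBody K) {t : ℝ} (ht : 0 < t) :
    SymBody (dil t K) := by
  have e : P126.dil t K = t • K := rfl
  refine ⟨?_, ?_, ?_, ?_⟩
  · exact h.compact.image (by fun_prop)
  · rw [e]; exact h.convex.smul t
  · rw [e, interior_smul₀ ht.ne']
    exact h.interior.smul_set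
  · rintro _ ⟨x, hx, rfl⟩
    exact ⟨-x, h.symm x hx, smul_neg _ _⟩

theorem polar_body {K : Set (ι → ℝ)} (h : SymBody K) : SymBody (polar K) := by
  classical
  refine ⟨?_, ?_, ?_, ?_⟩
  · apply Metric.isCompact_of_isClosed_isBounded
    · have e : polar K = ⋂ x ∈ K, {y : ι → ℝ | ∑ i, x i * y i ≤ 1} := by
        ext y
        simp [polar]
      rw [e]
      refine isClosed_biInter fun x _ => isClosed_le ?_ continuous_const
      fun_prop
    · obtain ⟨r, hr, hball⟩ := Metric.mem_nhds_iff.1 (mem_interior_iff_mem_nhds.1 (zero_int h))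
      rw [isBounded_iff_forall_norm_le]
      refine ⟨2 / r, fun y hy => ?_⟩
      rw [pi_norm_le_iff_of_nonneg (by positivity)]
      intro i
      have hs : ∀ c : ℝ, |c| < r → c * y i ≤ 1 := by
        intro c hc
        have hmem : (Pi.single i c : ι → ℝ) ∈ K := by
          apply hball
          rw [mem_ball_zero_iff, pi_norm_lt_iff hr]
          intro j
          by_cases hj : j = i
          · subst hj
            rw [Pi.single_eq_same]
            exact hc
          · rw [Pi.single_eq_of_ne hj, norm_zero]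
            exact hr
        have h1 := hy _ hmem
        rwa [Finset.sum_eq_single i (fun j _ hj => by rw [Pi.single_eq_of_ne hj, zero_mul])
          (fun hi => absurd (Finset.mem_univ i) hi), Pi.single_eq_same] at h1
      have h1 := hs (r / 2) (by rw [abs_of_pos (by positivity)]; linarith)
      have h2 := hs (-(r / 2)) (by rw [abs_neg, abs_of_pos (by positivity)]; linarith)
      rw [Real.norm_eq_abs, abs_le, ← neg_div, le_div_iff₀ hr, div_le_iff₀ hr]
      constructor <;> nlinarith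
  · intro y hy z hz a b ha hb hab x hx
    have h1 := mul_le_mul_of_nonneg_left (hy x hx) ha
    have h2 := mul_le_mul_of_nonneg_left (hz x hx) hb
    have e : ∑ i, x i * (a • y + b • z) i = a * ∑ i, x i * y i + b * ∑ i, x i * z i := by
      rw [Finset.mul_sum, Finset.mul_sum, ← Finset.sum_add_distrib]
      refine Finset.sum_congr rfl fun i _ => ?_
      simp only [Pi.add_apply, Pi.smul_apply, smul_eq_mul]
      ring
    rw [e]
    linarith
  · obtain ⟨R, hR⟩ := isBounded_iff_forall_norm_le.1 h.compact.isBounded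
    have hR0 : 0 ≤ R := (norm_nonneg _).trans (hR 0 (zero_memB h))
    have hc : (0 : ℝ) < Fintype.card ι * R + 1 := by positivity
    refine ⟨0, ?_⟩
    rw [mem_interior]
    refine ⟨Metric.ball 0 (1 / (Fintype.card ι * R + 1)), ?_, Metric.isOpen_ball,
      Metric.mem_ball_self (by positivity)⟩
    intro y hy x hx
    rw [mem_ball_zero_iff] at hy
    have h1 : ∀ i ∈ Finset.univ, x i * y i ≤ R * (1 / (Fintype.card ι * R + 1)) := by
      intro i _
      calc x i * y i ≤ |x i * y i| := le_abs_self _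
        _ = ‖x i‖ * ‖y i‖ := by rw [abs_mul]; rfl
        _ ≤ R * (1 / (Fintype.card ι * R + 1)) :=
            mul_le_mul ((norm_le_pi_norm x i).trans (hR x hx)) ((norm_le_pi_norm y i).trans hy.le)
              (norm_nonneg _) hR0
    refine (Finset.sum_le_sum h1).trans ?_
    rw [Finset.sum_const, Finset.card_univ, nsmul_eq_mul, mul_one_div, ← mul_div_assoc,
      div_le_one hc]
    linarith
  · intro y hy x hx
    have h1 := hy (-x) (h.symm x hx)
    have e : ∑ i, x i * (-y) i = ∑ i, (-x) i * y i :=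
      Finset.sum_congr rfl fun i _ => by simp only [Pi.neg_apply]; ring
    rw [e]
    exact h1

theorem polar_prod_sub {K₁ : Set (ι → ℝ)} {K₂ : Set (κ → ℝ)} (h₁ : (0 : ι → ℝ) ∈ K₁)
    (h₂ : (0 : κ → ℝ) ∈ K₂) : polar (prodB K₁ K₂) ⊆ prodB (polar K₁) (polar K₂) := by
  intro y hy
  constructor
  · intro x hx
    have h := hy (Sum.elim x 0) ⟨hx, h₂⟩
    rw [Fintype.sum_sum_type] at h
    simpa using h
  · intro x hx
    have h := hy (Sum.elim 0 x) ⟨h₁, hx⟩
    rw [Fintype.sum_sum_type] at h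
    simpa using h

theorem half_prod_sub (K₁ : Set (ι → ℝ)) (K₂ : Set (κ → ℝ)) :
    dil (1 / 2) (prodB (polar K₁) (polar K₂)) ⊆ polar (prodB K₁ K₂) := by
  rintro _ ⟨y, ⟨h1, h2⟩, rfl⟩ z ⟨hz1, hz2⟩
  have e1 := h1 _ hz1
  have e2 := h2 _ hz2
  rw [Fintype.sum_sum_type]
  have e3 : ∑ i, z (Sum.inl i) * ((1 / 2 : ℝ) • y) (Sum.inl i) =
      (1 / 2) * ∑ i, z (Sum.inl i) * y (Sum.inl i) := by
    rw [Finset.mul_sum]
    refine Finset.sum_congr rfl fun i _ => ?_
    simp only [Pi.smul_apply, smul_eq_mul]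
    ring
  have e4 : ∑ j, z (Sum.inr j) * ((1 / 2 : ℝ) • y) (Sum.inr j) =
      (1 / 2) * ∑ j, z (Sum.inr j) * y (Sum.inr j) := by
    rw [Finset.mul_sum]
    refine Finset.sum_congr rfl fun j _ => ?_
    simp only [Pi.smul_apply, smul_eq_mul]
    ring
  change ∑ i, z (Sum.inl i) * ((1 / 2 : ℝ) • y) (Sum.inl i) +
    ∑ j, z (Sum.inr j) * ((1 / 2 : ℝ) • y) (Sum.inr j) ≤ 1
  rw [e3, e4]
  linarith

theorem polar_dil {t : ℝ} (ht : 0 < t) (L : Set (ι → ℝ)) : polar (dil t L) = dil t⁻¹ (polar L) := by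
  have key : ∀ (x y : ι → ℝ), ∑ i, (t • x) i * y i = ∑ i, x i * (t • y) i := by
    intro x y
    refine Finset.sum_congr rfl fun i _ => ?_
    simp only [Pi.smul_apply, smul_eq_mul]
    ring
  ext y
  constructor
  · intro hy
    refine ⟨t • y, ?_, ?_⟩
    · intro x hx
      rw [← key]
      exact hy _ (mem_dil hx)
    · change t⁻¹ • t • y = y
      rw [smul_smul, inv_mul_cancel₀ ht.ne', one_smul]
  · rintro ⟨w, hw, rfl⟩ _ ⟨x, hx, rfl⟩
    change ∑ i, (t • x) i * (t⁻¹ • w) i ≤ 1
    rw [key, smul_smul, mul_inv_cancel₀ ht.ne', one_smul]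
    exact hw x hx

end Vale.Agent.P126
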