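import Vale.Agent.Lib.P126.Polar

/-! P126: the product of two symmetric convex bodies is one. -/

namespace Vale.Agent.P126

open Set

variable {ι κ : Type} [Fintype ι] [Fintype κ]

theorem prodB_body {K : Set (ι → ℝ)} {L : Set (κ → ℝ)} (hK : SymBody K) (hL : SymBody L) :
    SymBody (prodB K L) := by
  have e : prodB K L = (Homeomorph.sumArrowHomeomorphProdArrow (ι := ι) (ι' := κ) (X := ℝ)) ⁻¹'
      (K ×ˢ L) := rfl
  refine ⟨?_, ?_, ?_, ?_⟩
  · rw [e, Homeomorph.isCompact_preimage]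
    exact hK.compact.prod hL.compact
  · rintro x ⟨hx1, hx2⟩ y ⟨hy1, hy2⟩ a b ha hb hab
    exact ⟨hK.convex hx1 hy1 ha hb hab, hL.convex hx2 hy2 ha hb hab⟩
  · rw [e, ← Homeomorph.preimage_interior, interior_prod_eq]
    obtain ⟨x, hx⟩ := hK.interior
    obtain ⟨y, hy⟩ := hL.interior
    refine ⟨(Homeomorph.sumArrowHomeomorphProdArrow (ι := ι) (ι' := κ) (X := ℝ)).symm (x, y), ?_⟩
    rw [mem_preimage, Homeomorph.apply_symm_apply]
    exact ⟨hx, hy⟩
  · rintro z ⟨h1, h2⟩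
    exact ⟨hK.symm _ h1, hL.symm _ h2⟩

end Vale.Agent.P126
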